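import Vale.Agent.P240.Q.Orth
import Vale.Agent.P240.Q.Iso

namespace Vale.Agent.Results.P240.A00_cl

open Vale.Agent.P240 Matrix

theorem result (G : Type) [Group G] [Finite G] (n : ℕ) (hn : Odd n) (h3 : 3 ≤ n)
    (K : Type) [Field K] [Finite K] (h2 : (2 : K) ≠ 0) (L : Subgroup G)
    (h : (100 * Nat.gcd (2 * n) (Nat.card K - 1) ≤ Nat.card K ∧
          (IsSquare (Nat.card K) → (100 * Nat.gcd (2 * n) (Nat.card K - 1)) ^ 2 ≤ Nat.card K) ∧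
          Iso L (ProjectiveSpecialLinearGroup (Fin n) K)) ∨
        (∃ (q : ℕ) (σ : RingAut K), Nat.card K = q ^ 2 ∧ 100 * Nat.gcd (2 * n) (q + 1) ≤ q ∧
          Inv2 σ ∧ σ ≠ 1 ∧ Iso L (Pr (GU n σ ⊓ SG n K))) ∨
        (5 ≤ n ∧ 49 ≤ Nat.card K ∧ (IsSquare (Nat.card K) → 100 ^ 2 ≤ Nat.card K) ∧
          Iso L (PH n K))) :
    (L.Normal → Subgroup.centralizer (L : Set G) = ⊥ → (∀ x : G, x * x ∈ L) → ∃ r, QD 2 G r) ∧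
      (MinHyp 2 G → L.IsSubnormal → IsSimpleGroup L → HQ 2 (⊤ : Subgroup G)) := by
  rcases h with ⟨hq, hq', ⟨e⟩⟩ | ⟨q, σ, hK, hq, hσ, h1, ⟨e⟩⟩ | ⟨h5, hq, hq', ⟨e⟩⟩
  · exact ⟨fun _ hC hsq => qd_A hn h3 h2 hC hsq hq hq' e,
      fun hG hL hs => elim_A hG hn h3 h2 hL hs hq hq' e⟩
  · exact ⟨fun _ hC hsq => qd_U hn h3 h2 hC hsq hK hq hσ h1 e,
      fun hG hL hs => elim_U hG hn h3 h2 hL hs hK hq hσ h1 e⟩
  · exact ⟨fun _ hC hsq => qd_O hn h5 h2 hC hsq hq hq' e,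
      fun hG hL hs => elim_O hG hn h5 h2 hL hs hq hq' e⟩

end Vale.Agent.Results.P240.A00_cl
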