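import Vale.Agent.P240.T.Final

namespace Vale.Agent.Results.P240.A_elim

open Vale.Agent.P240 Matrix

theorem result (G : Type) [Group G] [Finite G] (hG : MinHyp 2 G) (n : ℕ) (hn : Odd n) (h3 : 3 ≤ n)
    (K : Type) [Field K] [Finite K] (h2 : (2 : K) ≠ 0) (L : Subgroup G) (hL : L.IsSubnormal)
    (hs : IsSimpleGroup L)
    (h : (100 * Nat.gcd (2 * n) (Nat.card K - 1) ≤ Nat.card K ∧
          (IsSquare (Nat.card K) → (100 * Nat.gcd (2 * n) (Nat.card K - 1)) ^ 2 ≤ Nat.card K) ∧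
          Cmp L (Pr (SG n K)) ⊤ ⊤) ∨
        (∃ (q : ℕ) (σ : RingAut K), Nat.card K = q ^ 2 ∧ 100 * Nat.gcd (2 * n) (q + 1) ≤ q ∧
          Inv2 σ ∧ σ ≠ 1 ∧ Cmp L (Pr (GU n σ ⊓ SG n K)) (GU n σ) ⊥) ∨
        (49 ≤ Nat.card K ∧ (IsSquare (Nat.card K) → 100 ^ 2 ≤ Nat.card K) ∧
          Cmp L (PH n K) (OG n K) ⊥)) :
    HQ 2 (⊤ : Subgroup G) := by
  rcases h with ⟨hq, hq', h⟩ | ⟨q, σ, hK, hq, hσ, h1, h⟩ | ⟨hq, hq', h⟩
  · have hg : 0 < Nat.gcd (2 * n) (Nat.card K - 1) := Nat.gcd_pos_of_pos_left _ (by omega)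
    refine fin_core hG hL hs (Subgroup.map_mono le_top) (fun p _ y _ => ?_)
      (fun x hx => cent_A h2 (by omega) hn h3 hx.1)
      (fun A _ _ hsq => pc_A h2 hn h3 hq hq' A hsq) h
    obtain ⟨g, hg⟩ := ProjGenLinGroup.mk_surjective (act n K p y)
    exact ⟨g, trivial, hg⟩
  · have hg : 0 < Nat.gcd (2 * n) (q + 1) := Nat.gcd_pos_of_pos_left _ (by omega)
    have h49 : 49 ≤ Nat.card K := by
      rw [hK]
      exact le_trans (by norm_num) (Nat.pow_le_pow_left (show 7 ≤ q by omega) 2)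
    refine fin_core hG hL hs (Subgroup.map_mono inf_le_left) (fun p _ y hy => ?_)
      (fun x hx => cent_U h2 h49 hn h3 hσ h1 hx.1 (Subgroup.mem_bot.1 hx.2))
      (fun A hA _ hsq => pc_U h2 hn h3 hK hq hσ h1 A hA hsq) h
    obtain ⟨g, hg, rfl⟩ := hy
    rw [act_mk]
    exact Subgroup.mem_map_of_mem _ (algu_TFin _ _ _ hg)
  · exact fin_core hG hL hs PH_le (fun p _ => act_PO p)
      (fun x hx => cent_B h2 hq hn h3 hx.1 (Subgroup.mem_bot.1 hx.2))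
      (fun A hA comm hsq => pc_B h2 hn h3 hq hq' A hA comm hsq) h

end Vale.Agent.Results.P240.A_elim
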