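import Vale.Agent.P240.Main
import Vale.Agent.P240.Stmt

namespace Vale.Agent.Results.P240.B_qd

open Vale.Agent.P240 Matrix

theorem result {ι : Type} [Fintype ι] [Nonempty ι] (n : ι → ℕ) (hn : ∀ i, 3 ≤ n i)
    (F : ι → Type) [∀ i, Field (F i)] [∀ i, Finite (F i)] (h2 : ∀ i, (2 : F i) ≠ 0)
    (hq : ∀ i, 31 ≤ Nat.card (F i)) (G : Type) [Group G] [Finite G]
    (hj : Emb (∀ i, PH (n i) (F i)) G) :
    ((∀ E : Subgroup G, IsEA 2 E → Nat.card E ≤ 2 ^ ∑ i, (n i - 1)) → QD 2 G (∑ i, (n i - 1))) ∧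
    ∀ (K : ι → Type) [∀ i, Field (K i)], (∀ i, (2 : K i) ≠ 0) → (∀ i, n i ≠ 4) →
      Emb G (∀ i, ProjGenLinGroup (Fin (n i)) (K i)) → QD 2 G (∑ i, (n i - 1)) := by
  obtain ⟨j, hj⟩ := hj
  exact ⟨main_qd (fun i => le_trans (by norm_num) (hn i)) h2 hq j hj, fun _ _ hK h4 ⟨π, hπ⟩ =>
    main_qd (fun i => le_trans (by norm_num) (hn i)) h2 hq j hj (pi_rank hn h4 hK π hπ)⟩

end Vale.Agent.Results.P240.B_qd
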