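import Vale.Agent.P240.E.Main
import Vale.Agent.P240.D.PC
import Vale.Agent.P240.D.Cent
import Vale.Agent.P240.D.Stmt

namespace Vale.Agent.Results.P240.C_elim

open Vale.Agent.P240 Matrix

theorem result (G : Type) [Group G] [Finite G] (hG : MinHyp 2 G) (n : ℕ) (hn : Odd n) (h3 : 3 ≤ n)
    (F : Type) [Field F] [Finite F] (h2 : (2 : F) ≠ 0) (hq : 37 ≤ Nat.card F) (L : Subgroup G)
    (hL : L.IsSubnormal) (hs : IsSimpleGroup L) (e : L ≃* PH n F)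
    (hx : ∀ x ∈ Subgroup.normalizer (L : Set G), x * x = 1 →
      ∃ y ∈ OG n F, ActsAs e x (ProjGenLinGroup.mk y)) :
    HQ 2 (⊤ : Subgroup G) := by
  have h7 : 7 ≤ Nat.card F := le_trans (by norm_num) hq
  have hna : ∃ x ∈ L, ∃ y ∈ L, x * y ≠ y * x := by
    obtain ⟨x, hx, y, hy, hxy⟩ := PH_nonab h2 h7 hn h3
    refine ⟨e.symm ⟨x, hx⟩, Subtype.mem _, e.symm ⟨y, hy⟩, Subtype.mem _, fun h => hxy ?_⟩
    have h1 : e.symm (⟨x, hx⟩ * ⟨y, hy⟩) = e.symm (⟨y, hy⟩ * ⟨x, hx⟩) := by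
      rw [map_mul, map_mul]
      exact Subtype.ext h
    exact congrArg Subtype.val (e.symm.injective h1)
  refine elim hL hs hna hG.1 hG.2 fun A hA => ?_
  obtain ⟨A', h1, -, -, e', he⟩ := exists_equiv e PH_le (fun y _ hy => cent_PH h2 h7 hn h3 hy) hA
    (inf_cent hs hna) fun x hxA => by
      obtain ⟨y, hy, h⟩ := hx x (hA.1 hxA) (hA.2.2.1 x hxA)
      exact ⟨_, ⟨y, hy, rfl⟩, h⟩
  exact PC.transfer le_sup_left le_sup_left e' he (pc_orth h2 hq hn h3 h1)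

end Vale.Agent.Results.P240.C_elim
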